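import Vale.Agent.P097.H286.C.Defs

/-!
# P097 / case [c] / growth: post-processing, part 1

Elementary inequalities for bounds of the form `exp (C * d ^ (-a))`, `d` = distance to the boundary
of the strip, and the linear differential equation of the support number `q`.
-/

set_option linter.all false

open Complex Metric Filter Topology Set
open scoped ComplexConjugate

namespace Vale.Agent.P097.H320.G

open Vale.Agent.P097 Vale.Agent.P097.H202 Vale.Agent.P097.SC Vale.Agent.P097.CC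

/-- distance to the boundary of the strip -/
def dd (b : ℝ) (x : ℂ) : ℝ := b - |x.im|

/-- the gauge `d ^ (-a)` -/
noncomputable def ga (a b : ℝ) (x : ℂ) : ℝ := (b - |x.im|) ^ (-a)

theorem dd_pos {b : ℝ} {x : ℂ} (hx : x ∈ Str b) : 0 < b - |x.im| := sub_pos.2 hx

theorem ga_ge {a b : ℝ} (ha : 0 < a) {x : ℂ} (hx : x ∈ Str b) : b ^ (-a) ≤ ga a b x := by
  unfold ga
  apply Real.rpow_le_rpow_of_nonpos (dd_pos hx) _ (by linarith)
  have := abs_nonneg x.im
  linarith

theorem ga_pos {a b : ℝ} {x : ℂ} (hx : x ∈ Str b) : 0 < ga a b x := Real.rpow_pos_of_pos (dd_pos hx) _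

/-- constants are absorbed -/
theorem const_absorb {a b : ℝ} (ha : 0 < a) (hb : 0 < b) (K : ℝ) :
    ∃ C > 0, ∀ x ∈ Str b, K ≤ C * ga a b x := by
  refine ⟨(|K| + 1) * b ^ a, by positivity, fun x hx => ?_⟩
  have h1 := ga_ge ha hx
  have h2 : b ^ a * b ^ (-a) = 1 := by
    rw [← Real.rpow_add hb]; simp
  calc K ≤ |K| + 1 := (le_abs_self K).trans (by linarith)
    _ = (|K| + 1) * (b ^ a * b ^ (-a)) := by rw [h2, mul_one]
    _ ≤ (|K| + 1) * (b ^ a * ga a b x) := by gcongr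
    _ = _ := by ring

/-- `K * exp (C d^(-a)) ≤ exp (C' d^(-a))` -/
theorem mul_absorb {a b : ℝ} (ha : 0 < a) (hb : 0 < b) (K C : ℝ) :
    ∃ C' > 0, ∀ x ∈ Str b, K * Real.exp (C * ga a b x) ≤ Real.exp (C' * ga a b x) := by
  obtain ⟨C₁, hC₁, h⟩ := const_absorb ha hb (Real.log (|K| + 1))
  refine ⟨C₁ + |C|, by positivity, fun x hx => ?_⟩
  have h1 : |K| + 1 ≤ Real.exp (C₁ * ga a b x) := by
    have h2 : (0 : ℝ) < |K| + 1 := by positivity
    calc |K| + 1 = Real.exp (Real.log (|K| + 1)) := (Real.exp_log h2).symm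
      _ ≤ _ := Real.exp_le_exp.2 (h x hx)
  have h3 : K ≤ |K| + 1 := (le_abs_self K).trans (by linarith)
  have hg := (ga_pos (a := a) hx).le
  have h4 : C * ga a b x ≤ |C| * ga a b x := mul_le_mul_of_nonneg_right (le_abs_self C) hg
  calc K * Real.exp (C * ga a b x) ≤ (|K| + 1) * Real.exp (|C| * ga a b x) := by
        apply mul_le_mul h3 (Real.exp_le_exp.2 h4) (Real.exp_pos _).le (by positivity)
    _ ≤ Real.exp (C₁ * ga a b x) * Real.exp (|C| * ga a b x) :=
        mul_le_mul_of_nonneg_right h1 (Real.exp_pos _).le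
    _ = _ := by rw [← Real.exp_add, add_mul]

/-- powers of the distance are absorbed -/
theorem pow_absorb {a b : ℝ} (ha : 0 < a) (hb : 0 < b) (N : ℝ) (hN : 0 ≤ N) :
    ∃ C > 0, ∀ x ∈ Str b, (b - |x.im|) ^ (-N) ≤ Real.exp (C * ga a b x) := by
  refine ⟨N / a + 1, by positivity, fun x hx => ?_⟩
  have hd := dd_pos hx
  have h1 : (b - |x.im|) ^ (-N) = Real.exp (N / a * Real.log (ga a b x)) := by
    unfold ga
    rw [Real.log_rpow hd, Real.rpow_def_of_pos hd]
    congr 1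
    field_simp
  rw [h1]
  apply Real.exp_le_exp.2
  have h2 := Real.log_le_sub_one_of_pos (ga_pos (a := a) hx)
  have hg := ga_pos (a := a) hx
  have h3 : N / a * Real.log (ga a b x) ≤ N / a * ga a b x :=
    mul_le_mul_of_nonneg_left (by linarith) (by positivity)
  linarith

/-- half distance -/
theorem half_absorb {a b : ℝ} (ha : 0 < a) {x z : ℂ} (hx : x ∈ Str b)
    (hz : ‖z - x‖ ≤ (b - |x.im|) / 2) : z ∈ Str b ∧ ga a b z ≤ 2 ^ a * ga a b x := by
  have hd := dd_pos hx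
  have h1 : |z.im| ≤ |x.im| + (b - |x.im|) / 2 := by
    have h2 : |z.im - x.im| ≤ ‖z - x‖ := by
      have := Complex.abs_im_le_norm (z - x)
      simpa using this
    have h3 := abs_add_le x.im (z.im - x.im)
    have h4 : x.im + (z.im - x.im) = z.im := by ring
    rw [h4] at h3
    linarith
  have hz' : (b - |x.im|) / 2 ≤ b - |z.im| := by linarith
  refine ⟨?_, ?_⟩
  · rw [mem_Str]; linarith
  · unfold ga
    calc (b - |z.im|) ^ (-a) ≤ ((b - |x.im|) / 2) ^ (-a) :=
          Real.rpow_le_rpow_of_nonpos (by positivity) hz' (by linarith)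
      _ = 2 ^ a * (b - |x.im|) ^ (-a) := by
          rw [Real.div_rpow hd.le (by norm_num), Real.rpow_neg (by norm_num : (0 : ℝ) ≤ 2)]
          field_simp

/-- **derivatives** : Cauchy estimate in the gauge -/
theorem deriv_bd {a b C : ℝ} (ha : 0 < a) (hb : 0 < b) {f : ℂ → ℂ}
    (hf : DifferentiableOn ℂ f (Str b))
    (h : ∀ x ∈ Str b, ‖f x‖ ≤ Real.exp (C * ga a b x)) :
    ∃ C' > 0, ∀ x ∈ Str b, ‖deriv f x‖ ≤ Real.exp (C' * ga a b x) := by
  obtain ⟨C₁, hC₁, h1⟩ := pow_absorb ha hb 1 zero_le_one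
  obtain ⟨C₂, hC₂, h2⟩ := mul_absorb ha hb 2 (C₁ + |C| * 2 ^ a)
  refine ⟨C₂, hC₂, fun x hx => ?_⟩
  have hd := dd_pos hx
  have hr : 0 < (b - |x.im|) / 2 := by positivity
  have hsub : ∀ z, ‖z - x‖ ≤ (b - |x.im|) / 2 → z ∈ Str b ∧ ga a b z ≤ 2 ^ a * ga a b x :=
    fun z hz => half_absorb ha hx hz
  have hcl : DiffContOnCl ℂ f (ball x ((b - |x.im|) / 2)) := by
    apply DifferentiableOn.diffContOnCl
    rw [closure_ball x hr.ne']
    exact hf.mono fun z hz => (hsub z (by simpa [dist_eq_norm] using hz)).1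
  have hbd : ∀ z ∈ sphere x ((b - |x.im|) / 2), ‖f z‖ ≤ Real.exp (|C| * 2 ^ a * ga a b x) := by
    intro z hz
    obtain ⟨hz1, hz2⟩ := hsub z (by rw [mem_sphere, dist_eq_norm] at hz; exact hz.le)
    refine (h z hz1).trans (Real.exp_le_exp.2 ?_)
    have hg := (ga_pos (a := a) hz1).le
    calc C * ga a b z ≤ |C| * ga a b z := mul_le_mul_of_nonneg_right (le_abs_self C) hg
      _ ≤ |C| * (2 ^ a * ga a b x) := mul_le_mul_of_nonneg_left hz2 (abs_nonneg C)
      _ = _ := by ring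
  have h3 := Complex.norm_deriv_le_of_forall_mem_sphere_norm_le hr hcl hbd
  have h4 := h1 x hx
  rw [Real.rpow_neg_one] at h4
  calc ‖deriv f x‖ ≤ Real.exp (|C| * 2 ^ a * ga a b x) / ((b - |x.im|) / 2) := h3
    _ = 2 * ((b - |x.im|)⁻¹ * Real.exp (|C| * 2 ^ a * ga a b x)) := by field_simp
    _ ≤ 2 * (Real.exp (C₁ * ga a b x) * Real.exp (|C| * 2 ^ a * ga a b x)) := by gcongr
    _ = 2 * Real.exp ((C₁ + |C| * 2 ^ a) * ga a b x) := by rw [← Real.exp_add]; ring_nf
    _ ≤ _ := h2 x hx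

/-- sums and products of gauge bounds -/
theorem add_bd {a b C₁ C₂ : ℝ} (ha : 0 < a) (hb : 0 < b) :
    ∃ C' > 0, ∀ x ∈ Str b, Real.exp (C₁ * ga a b x) + Real.exp (C₂ * ga a b x) ≤
      Real.exp (C' * ga a b x) := by
  obtain ⟨C, hC, h⟩ := mul_absorb ha hb 2 (max C₁ C₂)
  refine ⟨C, hC, fun x hx => ?_⟩
  have hg := (ga_pos (a := a) hx).le
  have h1 : Real.exp (C₁ * ga a b x) ≤ Real.exp (max C₁ C₂ * ga a b x) :=
    Real.exp_le_exp.2 (mul_le_mul_of_nonneg_right (le_max_left _ _) hg)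
  have h2 : Real.exp (C₂ * ga a b x) ≤ Real.exp (max C₁ C₂ * ga a b x) :=
    Real.exp_le_exp.2 (mul_le_mul_of_nonneg_right (le_max_right _ _) hg)
  have := h x hx
  linarith

/-- periodic functions are bounded on the real line -/
theorem real_bdd {E : Type*} [NormedAddCommGroup E] {b : ℝ} (hb : 0 < b) {f : ℂ → E} (hf : ContinuousOn f (Str b))
    (hp : ∀ z ∈ Str b, f (z + 1) = f z) : ∃ M > 0, ∀ x : ℝ, ‖f x‖ ≤ M := by
  have hc : Continuous fun x : ℝ => f x := by
    rw [← continuousOn_univ]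
    exact hf.comp continuous_ofReal.continuousOn fun x _ => real_mem_Str hb x
  obtain ⟨M, hM⟩ := (isCompact_Icc (a := (0 : ℝ)) (b := 1)).exists_bound_of_continuousOn
    hc.continuousOn
  have hper : Function.Periodic (fun x : ℝ => f x) 1 := by
    intro x
    have := hp x (real_mem_Str hb x)
    simpa using this
  refine ⟨|M| + 1, by positivity, fun x => ?_⟩
  obtain ⟨y, hy, hxy⟩ := hper.exists_mem_Ico₀ one_pos x
  have h1 : f x = f y := hxy
  rw [h1]
  have := hM y ⟨hy.1, hy.2.le⟩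
  exact this.trans ((le_abs_self M).trans (by linarith))

end Vale.Agent.P097.H320.G
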