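import Vale.Agent.P097.H320.G.Post1

/-!
# P097 / case [c] / growth: post-processing, part 2

Gronwall on vertical segments; the linear equation of the support number; growth of `q`; lower
bound of `|F'| + |F''|`.
-/

set_option linter.all false

open Complex Metric Filter Topology Set
open scoped ComplexConjugate

namespace Vale.Agent.P097.H320.G

open Vale.Agent.P097 Vale.Agent.P097.H202 Vale.Agent.P097.SC Vale.Agent.P097.CC

/-- Gronwall from a point to another along a segment of length `1` in the parameter -/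
theorem seg_gronwall {E : Type*} [NormedAddCommGroup E] [NormedSpace ℂ E] {U : Set ℂ}
    (hU : IsOpen U) {v : ℂ → E} (hv : DifferentiableOn ℂ v U) {x y : ℂ} {K : ℝ}
    (hs : ∀ τ ∈ Icc (0 : ℝ) 1, x + τ * (y - x) ∈ U)
    (hK : ∀ τ ∈ Icc (0 : ℝ) 1, ‖deriv v (x + τ * (y - x))‖ ≤ K * ‖v (x + τ * (y - x))‖) :
    ‖v y‖ ≤ ‖v x‖ * Real.exp (K * ‖y - x‖) := by
  have hd : ∀ τ ∈ Icc (0 : ℝ) 1, HasDerivAt (fun τ : ℝ => v (x + τ * (y - x)))
      ((y - x) • deriv v (x + τ * (y - x))) τ := by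
    intro τ hτ
    have h1 : HasDerivAt v (deriv v (x + τ * (y - x))) (x + τ * (y - x)) :=
      (hv.differentiableAt (hU.mem_nhds (hs τ hτ))).hasDerivAt
    have h2 : HasDerivAt (fun τ : ℝ => x + (τ : ℂ) * (y - x)) (y - x) τ := by
      have h3 : HasDerivAt (fun τ : ℝ => (τ : ℂ)) 1 τ := Complex.ofRealCLM.hasDerivAt
      simpa using (h3.mul_const (y - x)).const_add x
    exact HasDerivAt.scomp τ h1 h2
  have h4 := norm_le_gronwallBound_of_norm_deriv_right_le (δ := ‖v x‖) (K := K * ‖y - x‖) (ε := 0)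
    (a := 0) (b := 1) (f := fun τ : ℝ => v (x + τ * (y - x)))
    (f' := fun τ : ℝ => (y - x) • deriv v (x + τ * (y - x)))
    (fun τ hτ => (hd τ hτ).continuousAt.continuousWithinAt)
    (fun τ hτ => (hd τ ⟨hτ.1, hτ.2.le⟩).hasDerivWithinAt) (by simp) (by
      intro τ hτ
      rw [norm_smul, add_zero]
      have h5 := hK τ ⟨hτ.1, hτ.2.le⟩
      have h6 := norm_nonneg (y - x)
      nlinarith) 1 ⟨zero_le_one, le_rfl⟩
  rw [gronwallBound_ε0] at h4
  have h5 : x + ((1 : ℝ) : ℂ) * (y - x) = y := by push_cast; ring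
  simpa [h5] using h4

theorem seg_mem {b : ℝ} {x : ℂ} (hx : x ∈ Str b) {τ : ℝ} (hτ : τ ∈ Icc (0 : ℝ) 1) :
    |((x.re : ℂ) + τ * (x - x.re)).im| ≤ |x.im| := by
  have : ((x.re : ℂ) + τ * (x - x.re)).im = τ * x.im := by simp
  rw [this, abs_mul, abs_of_nonneg hτ.1]
  have := abs_nonneg x.im
  nlinarith [hτ.2]

theorem ga_mono {a b : ℝ} (ha : 0 < a) {x z : ℂ} (hx : x ∈ Str b) (h : |z.im| ≤ |x.im|) :
    z ∈ Str b ∧ ga a b z ≤ ga a b x := by
  have hd := dd_pos hx
  refine ⟨lt_of_le_of_lt h hx, ?_⟩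
  unfold ga
  exact Real.rpow_le_rpow_of_nonpos hd (by linarith) (by linarith)

theorem norm_sub_re (x : ℂ) : ‖x - x.re‖ = |x.im| := by
  have h : x - (x.re : ℂ) = (x.im : ℂ) * I := by
    apply Complex.ext <;> simp
  rw [h, norm_mul, Complex.norm_I, mul_one, Complex.norm_real, Real.norm_eq_abs]

/-- Gronwall on vertical segments, both directions -/
theorem vert_gronwall {E : Type*} [NormedAddCommGroup E] [NormedSpace ℂ E] {b : ℝ} {v : ℂ → E}
    (hv : DifferentiableOn ℂ v (Str b)) {x : ℂ} (hx : x ∈ Str b) {K : ℝ}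
    (hK : ∀ z : ℂ, |z.im| ≤ |x.im| → ‖deriv v z‖ ≤ K * ‖v z‖) :
    ‖v x‖ ≤ ‖v x.re‖ * Real.exp (K * |x.im|) ∧ ‖v x.re‖ ≤ ‖v x‖ * Real.exp (K * |x.im|) := by
  have hm : ∀ τ ∈ Icc (0 : ℝ) 1, |((x.re : ℂ) + τ * (x - x.re)).im| ≤ |x.im| :=
    fun τ hτ => seg_mem hx hτ
  constructor
  · have := seg_gronwall (isOpen_Str b) hv (x := x.re) (y := x) (K := K)
      (fun τ hτ => lt_of_le_of_lt (hm τ hτ) hx) (fun τ hτ => hK _ (hm τ hτ))
    rwa [norm_sub_re] at this
  · have e : ∀ τ : ℝ, x + τ * ((x.re : ℂ) - x) = (x.re : ℂ) + ((1 - τ : ℝ) : ℂ) * (x - x.re) := by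
      intro τ; push_cast; ring
    have hm' : ∀ τ ∈ Icc (0 : ℝ) 1, |(x + τ * ((x.re : ℂ) - x)).im| ≤ |x.im| := by
      intro τ hτ
      rw [e]
      exact hm (1 - τ) ⟨by linarith [hτ.2], by linarith [hτ.1]⟩
    have := seg_gronwall (isOpen_Str b) hv (x := x) (y := x.re) (K := K)
      (fun τ hτ => lt_of_le_of_lt (hm' τ hτ) hx) (fun τ hτ => hK _ (hm' τ hτ))
    rwa [norm_sub_rev, norm_sub_re] at this

variable {Λ b : ℝ} {F q Q : ℂ → ℂ}

/-- **the linear equation of the support number** -/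
theorem ode_q (B : Bs Λ b F q Q) {x : ℂ} (hx : x ∈ Str b) :
    deriv (deriv (deriv q)) x = (Q x - deriv F x ^ 2) * deriv q x -
      3 * deriv F x * deriv (deriv F) x * q x := by
  have hO := isOpen_Str b
  have d1F := B.dF.deriv hO
  have d2F := d1F.deriv hO
  have d1q := B.dq.deriv hO
  have d2q := d1q.deriv hO
  have d3q := d2q.deriv hO
  have key : ∀ z ∈ Str b, deriv F z * (deriv (deriv (deriv q)) z -
      ((Q z - deriv F z ^ 2) * deriv q z - 3 * deriv F z * deriv (deriv F) z * q z)) = 0 := by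
    intro z hz
    have n := hO.mem_nhds hz
    have h1 : HasDerivAt (deriv F) (deriv (deriv F) z) z := (d1F.differentiableAt n).hasDerivAt
    have h2 : HasDerivAt (deriv (deriv F)) (deriv (deriv (deriv F)) z) z :=
      (d2F.differentiableAt n).hasDerivAt
    have h3 : HasDerivAt q (deriv q z) z := (B.dq.differentiableAt n).hasDerivAt
    have h4 : HasDerivAt (deriv q) (deriv (deriv q) z) z := (d1q.differentiableAt n).hasDerivAt
    have h5 : HasDerivAt (deriv (deriv q)) (deriv (deriv (deriv q)) z) z :=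
      (d2q.differentiableAt n).hasDerivAt
    have h6 : HasDerivAt (Wr F q) (deriv (deriv (deriv q)) z * deriv F z +
        deriv (deriv q) z * deriv (deriv F) z -
        (deriv (deriv q) z * deriv (deriv F) z + deriv q z * deriv (deriv (deriv F)) z) +
        (deriv q z * deriv F z ^ 3 + q z * (3 * deriv F z ^ 2 * deriv (deriv F) z))) z := by
      have h7 : HasDerivAt (fun z => deriv F z ^ 3) (3 * deriv F z ^ 2 * deriv (deriv F) z) z := by
        simpa using h1.fun_pow 3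
      exact ((h5.mul h1).sub (h4.mul h2)).add (h3.mul h7)
    have h8 : Wr F q =ᶠ[𝓝 z] fun _ => (Λ : ℂ) ^ 3 := by
      filter_upwards [n] with w hw
      exact B.wr w hw
    have h9 := h6.unique ((hasDerivAt_const z ((Λ : ℂ) ^ 3)).congr_of_eventuallyEq h8)
    rw [B.gQ z hz] at h9
    linear_combination h9
  have hcon : IsPreconnected (Str b) := (convex_Str b).isPreconnected
  have a1 : AnalyticOnNhd ℂ (deriv F) (Str b) := d1F.analyticOnNhd hO
  have a2 : AnalyticOnNhd ℂ (fun z => deriv (deriv (deriv q)) z -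
      ((Q z - deriv F z ^ 2) * deriv q z - 3 * deriv F z * deriv (deriv F) z * q z)) (Str b) := by
    apply DifferentiableOn.analyticOnNhd _ hO
    exact d3q.sub (((B.dQ.sub (d1F.pow 2)).mul d1q).sub
      ((((differentiableOn_const 3).mul d1F).mul d2F).mul B.dq))
  rcases AnalyticOnNhd.eq_zero_or_eq_zero_of_mul_eq_zero a1 a2 key hcon with h | h
  · have h0 := h _ (real_mem_Str B.b0 0)
    have h1 := B.gpos 0
    rw [h0] at h1
    simp at h1
  · exact sub_eq_zero.1 (h x hx)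

end Vale.Agent.P097.H320.G
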