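import Vale.Agent.P097.H320.G.Post2

/-!
# P097 / case [c] / growth: post-processing, part 3

From `‖F'‖ ≤ exp (C d^(-a))`, `‖Q‖ ≤ exp (C d^(-a))` on the strip: the same (with another `C`) for
`F - 2 π x`, `F''`, `F'''`, `log ‖q‖`, `log ‖q'‖`, and a lower bound of `|F'| + |F''|`.
-/

set_option linter.all false

open Complex Metric Filter Topology Set
open scoped ComplexConjugate

namespace Vale.Agent.P097.H320.G

open Vale.Agent.P097 Vale.Agent.P097.H202 Vale.Agent.P097.SC Vale.Agent.P097.CC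

variable {Λ b : ℝ} {F q Q : ℂ → ℂ}

/-- **(G1')** : `‖F x - 2 π x‖ ≤ exp (C' d^(-a))` -/
theorem F_bd {a C : ℝ} (ha : 0 < a) (B : Bs Λ b F q Q)
    (h : ∀ x ∈ Str b, ‖deriv F x‖ ≤ Real.exp (C * ga a b x)) :
    ∃ C' > 0, ∀ x ∈ Str b, ‖F x - 2 * Real.pi * x‖ ≤ Real.exp (C' * ga a b x) := by
  obtain ⟨M, hM, h1⟩ := real_bdd B.b0 (f := fun x => F x - 2 * Real.pi * x)
    (B.dF.sub (by fun_prop)).continuousOn (fun z hz => by
      have := B.Fp z hz
      simp only [this]; ring)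
  obtain ⟨C₁, hC₁, h2⟩ := mul_absorb ha B.b0 b |C|
  obtain ⟨C₂, hC₂, h3⟩ := mul_absorb ha B.b0 (M + 2 * Real.pi * b) 0
  obtain ⟨C₃, hC₃, h4⟩ := add_bd (a := a) (C₁ := C₁) (C₂ := C₂) ha B.b0
  refine ⟨C₃, hC₃, fun x hx => ?_⟩
  have hb := B.b0
  have hx' : |x.im| < b := hx
  have h5 : ‖F x - F x.re‖ ≤ Real.exp (|C| * ga a b x) * |x.im| := by
    have hc : Convex ℝ {z : ℂ | |z.im| ≤ |x.im|} := by
      intro u hu v hv s t hs ht hst
      simp only [mem_setOf_eq, add_im, smul_im, smul_eq_mul] at hu hv ⊢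
      calc |s * u.im + t * v.im| ≤ |s * u.im| + |t * v.im| := abs_add_le _ _
        _ = s * |u.im| + t * |v.im| := by rw [abs_mul, abs_mul, abs_of_nonneg hs, abs_of_nonneg ht]
        _ ≤ s * |x.im| + t * |x.im| := by gcongr
        _ = |x.im| := by rw [← add_mul, hst, one_mul]
    have h6 := hc.norm_image_sub_le_of_norm_deriv_le (𝕜 := ℂ) (f := F)
      (C := Real.exp (|C| * ga a b x)) (x := (x.re : ℂ)) (y := x)
      (fun z hz => (B.dF.differentiableAt ((isOpen_Str b).mem_nhds (ga_mono ha hx hz).1)))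
      (fun z hz => by
        obtain ⟨hz1, hz2⟩ := ga_mono ha hx hz
        refine (h z hz1).trans (Real.exp_le_exp.2 ?_)
        calc C * ga a b z ≤ |C| * ga a b z :=
              mul_le_mul_of_nonneg_right (le_abs_self C) (ga_pos (a := a) hz1).le
          _ ≤ |C| * ga a b x := mul_le_mul_of_nonneg_left hz2 (abs_nonneg C))
      (show |((x.re : ℂ)).im| ≤ |x.im| by simp) (show |x.im| ≤ |x.im| from le_rfl)
    rwa [norm_sub_re] at h6
  have h7 : ‖F x - 2 * Real.pi * x‖ ≤ ‖F x - F x.re‖ + (M + 2 * Real.pi * b) := by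
    have e : F x - 2 * Real.pi * x = (F x - F x.re) + (F x.re - 2 * Real.pi * x.re) -
        2 * Real.pi * (x - x.re) := by ring
    rw [e]
    have h8 := h1 x.re
    try simp only at h8
    have h9 : ‖(2 * Real.pi * (x - x.re) : ℂ)‖ ≤ 2 * Real.pi * b := by
      rw [norm_mul, norm_sub_re]
      have : ‖(2 * Real.pi : ℂ)‖ = 2 * Real.pi := by
        rw [norm_mul, Complex.norm_real, Real.norm_eq_abs, abs_of_pos Real.pi_pos]
        simp
      rw [this]
      have := Real.pi_pos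
      gcongr
    calc _ ≤ ‖F x - F x.re‖ + ‖F x.re - 2 * Real.pi * x.re‖ + ‖(2 * Real.pi * (x - x.re) : ℂ)‖ :=
          (norm_sub_le _ _).trans (add_le_add_left (norm_add_le _ _) _)
      _ ≤ _ := by linarith
  have h10 := h2 x hx
  have h11 := h3 x hx
  have h12 := h4 x hx
  rw [zero_mul, Real.exp_zero, mul_one] at h11
  have h13 : Real.exp (|C| * ga a b x) * |x.im| ≤ b * Real.exp (|C| * ga a b x) := by
    rw [mul_comm]
    gcongr
  linarith

/-- the vector `(q, q', q'')` -/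
noncomputable def vq (q : ℂ → ℂ) (z : ℂ) : ℂ × ℂ × ℂ := (q z, deriv q z, deriv (deriv q) z)

/-- the vector `(F', F'')` -/
noncomputable def vg (F : ℂ → ℂ) (z : ℂ) : ℂ × ℂ := (deriv F z, deriv (deriv F) z)

theorem vq_deriv (B : Bs Λ b F q Q) {x : ℂ} (hx : x ∈ Str b) :
    HasDerivAt (vq q) (deriv q x, deriv (deriv q) x, (Q x - deriv F x ^ 2) * deriv q x -
      3 * deriv F x * deriv (deriv F) x * q x) x := by
  have hO := isOpen_Str b
  have n := hO.mem_nhds hx
  have d1q := B.dq.deriv hO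
  have d2q := d1q.deriv hO
  rw [← ode_q B hx]
  exact (B.dq.differentiableAt n).hasDerivAt.prodMk
    ((d1q.differentiableAt n).hasDerivAt.prodMk (d2q.differentiableAt n).hasDerivAt)

theorem vg_deriv (B : Bs Λ b F q Q) {x : ℂ} (hx : x ∈ Str b) :
    HasDerivAt (vg F) (deriv (deriv F) x, Q x * deriv F x) x := by
  have hO := isOpen_Str b
  have n := hO.mem_nhds hx
  have d1F := B.dF.deriv hO
  have d2F := d1F.deriv hO
  rw [← B.gQ x hx]
  exact (d1F.differentiableAt n).hasDerivAt.prodMk (d2F.differentiableAt n).hasDerivAt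

/-- double exponential absorption -/
theorem gron_absorb {a C : ℝ} (ha : 0 < a) (hb : 0 < b) {M : ℝ} (hM : 0 < M) (hC : 0 ≤ C) :
    ∃ C' > 0, ∀ x ∈ Str b,
      M * Real.exp (Real.exp (C * ga a b x) * |x.im|) ≤ Real.exp (Real.exp (C' * ga a b x)) := by
  obtain ⟨C₁, hC₁, h1⟩ := mul_absorb ha hb (b + |Real.log M|) C
  refine ⟨C₁, hC₁, fun x hx => ?_⟩
  have hx' : |x.im| < b := hx
  have h2 : 1 ≤ Real.exp (C * ga a b x) :=
    Real.one_le_exp (mul_nonneg hC (ga_pos (a := a) hx).le)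
  calc M * Real.exp (Real.exp (C * ga a b x) * |x.im|)
      = Real.exp (Real.log M + Real.exp (C * ga a b x) * |x.im|) := by
        rw [Real.exp_add, Real.exp_log hM]
    _ ≤ Real.exp ((b + |Real.log M|) * Real.exp (C * ga a b x)) := by
        apply Real.exp_le_exp.2
        have h3 := le_abs_self (Real.log M)
        have h4 := abs_nonneg (Real.log M)
        have h5 : |Real.log M| * 1 ≤ |Real.log M| * Real.exp (C * ga a b x) := by gcongr
        have h6 : Real.exp (C * ga a b x) * |x.im| ≤ b * Real.exp (C * ga a b x) := by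
          rw [mul_comm]; gcongr
        nlinarith
    _ ≤ _ := Real.exp_le_exp.2 (h1 x hx)

/-- **(G3)** : double logarithmic growth of the support number -/
theorem q_bd {a C : ℝ} (ha : 0 < a) (B : Bs Λ b F q Q)
    (h : ∀ x ∈ Str b, ‖deriv F x‖ ≤ Real.exp (C * ga a b x))
    (hQ : ∀ x ∈ Str b, ‖Q x‖ ≤ Real.exp (C * ga a b x)) :
    ∃ C' > 0, ∀ x ∈ Str b, ‖vq q x‖ ≤ Real.exp (Real.exp (C' * ga a b x)) := by
  have hO := isOpen_Str b
  have hb := B.b0
  have d1q := B.dq.deriv hO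
  have d2q := d1q.deriv hO
  have dv : DifferentiableOn ℂ (vq q) (Str b) := fun z hz =>
    (vq_deriv B hz).differentiableAt.differentiableWithinAt
  have hper : ∀ z ∈ Str b, vq q (z + 1) = vq q z := by
    intro z hz
    have hn : ∀ᶠ w in 𝓝 z, q (w + 1) = q w := by
      filter_upwards [hO.mem_nhds hz] with w hw using B.qp w hw
    have e1 : ∀ w ∈ Str b, deriv q (w + 1) = deriv q w := by
      intro w hw
      have : (fun w => q (w + 1)) =ᶠ[𝓝 w] q := by
        filter_upwards [hO.mem_nhds hw] with u hu using B.qp u hu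
      rw [← this.deriv_eq, deriv_comp_add_const]
    have e2 : deriv (deriv q) (z + 1) = deriv (deriv q) z := by
      have : (fun w => deriv q (w + 1)) =ᶠ[𝓝 z] deriv q := by
        filter_upwards [hO.mem_nhds hz] with u hu using e1 u hu
      rw [← this.deriv_eq, deriv_comp_add_const]
    simp only [vq, B.qp z hz, e1 z hz, e2]
  obtain ⟨M, hM, hMb⟩ := real_bdd hb dv.continuousOn hper
  obtain ⟨C₁, hC₁, h1⟩ := deriv_bd (a := a) (C := C) ha hb (B.dF.deriv hO) h
  -- bound of the coefficients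
  obtain ⟨C₂, hC₂, h2⟩ := mul_absorb ha hb 6 (2 * |C| + C₁)
  obtain ⟨C₃, hC₃, h3⟩ := gron_absorb (C := C₂) ha hb hM hC₂.le
  refine ⟨C₃, hC₃, fun x hx => ?_⟩
  have hcoef : ∀ z ∈ Str b, ‖deriv (vq q) z‖ ≤ Real.exp (C₂ * ga a b z) * ‖vq q z‖ := by
    intro z hz
    rw [(vq_deriv B hz).deriv]
    have hg := (ga_pos (a := a) hz).le
    set E := Real.exp ((2 * |C| + C₁) * ga a b z) with hE
    have g1 : 1 ≤ E := Real.one_le_exp (by positivity)
    have n1 : ‖q z‖ ≤ ‖vq q z‖ := norm_fst_le (vq q z)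
    have n2 : ‖deriv q z‖ ≤ ‖vq q z‖ := (norm_fst_le (vq q z).2).trans (norm_snd_le _)
    have n3 : ‖deriv (deriv q) z‖ ≤ ‖vq q z‖ := (norm_snd_le (vq q z).2).trans (norm_snd_le _)
    have hCabs : C * ga a b z ≤ |C| * ga a b z := mul_le_mul_of_nonneg_right (le_abs_self C) hg
    have k1 : ‖Q z‖ ≤ E := (hQ z hz).trans (Real.exp_le_exp.2 (by nlinarith [abs_nonneg C]))
    have k2 : ‖deriv F z ^ 2‖ ≤ E := by
      rw [norm_pow]
      calc ‖deriv F z‖ ^ 2 ≤ Real.exp (C * ga a b z) ^ 2 := by gcongr; exact h z hz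
        _ = Real.exp (2 * (C * ga a b z)) := by rw [← Real.exp_nat_mul]; norm_num
        _ ≤ E := Real.exp_le_exp.2 (by nlinarith [abs_nonneg C])
    have k3 : ‖deriv F z * deriv (deriv F) z‖ ≤ E := by
      rw [norm_mul]
      calc ‖deriv F z‖ * ‖deriv (deriv F) z‖ ≤ Real.exp (C * ga a b z) * Real.exp (C₁ * ga a b z) :=
            mul_le_mul (h z hz) (h1 z hz) (norm_nonneg _) (Real.exp_pos _).le
        _ = Real.exp (C * ga a b z + C₁ * ga a b z) := (Real.exp_add _ _).symm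
        _ ≤ E := Real.exp_le_exp.2 (by nlinarith [abs_nonneg C])
    have hN := norm_nonneg (vq q z)
    have hfin : 6 * E ≤ Real.exp (C₂ * ga a b z) := h2 z hz
    have key : 6 * E * ‖vq q z‖ ≤ Real.exp (C₂ * ga a b z) * ‖vq q z‖ := by gcongr
    refine (max_le ?_ (max_le ?_ ?_)).trans key
    · calc ‖deriv q z‖ ≤ 1 * ‖vq q z‖ := by linarith
        _ ≤ 6 * E * ‖vq q z‖ := by gcongr; linarith
    · calc ‖deriv (deriv q) z‖ ≤ 1 * ‖vq q z‖ := by linarith
        _ ≤ 6 * E * ‖vq q z‖ := by gcongr; linarith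
    · have t1 : ‖(Q z - deriv F z ^ 2) * deriv q z‖ ≤ (E + E) * ‖vq q z‖ := by
        rw [norm_mul]
        exact mul_le_mul ((norm_sub_le _ _).trans (add_le_add k1 k2)) n2 (norm_nonneg _)
          (by positivity)
      have t2 : ‖3 * deriv F z * deriv (deriv F) z * q z‖ ≤ 3 * E * ‖vq q z‖ := by
        have e : 3 * deriv F z * deriv (deriv F) z * q z =
          3 * (deriv F z * deriv (deriv F) z) * q z := by ring
        rw [e, norm_mul, norm_mul]
        have : ‖(3 : ℂ)‖ = 3 := by simp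
        rw [this]
        gcongr
      have t3 := norm_sub_le ((Q z - deriv F z ^ 2) * deriv q z)
        (3 * deriv F z * deriv (deriv F) z * q z)
      have t4 : 0 ≤ E * ‖vq q z‖ := by positivity
      linarith
  have h4 := (vert_gronwall dv hx (K := Real.exp (C₂ * ga a b x)) (fun z hz => by
    obtain ⟨hz1, hz2⟩ := ga_mono ha hx hz
    refine (hcoef z hz1).trans ?_
    gcongr)).1
  refine h4.trans (le_trans ?_ (h3 x hx))
  gcongr
  exact hMb x.re

/-- **(G4)** : lower bound of `|F'| + |F''|` -/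
theorem g_low {a C : ℝ} (ha : 0 < a) (B : Bs Λ b F q Q) (hC : 0 ≤ C)
    (hQ : ∀ x ∈ Str b, ‖Q x‖ ≤ Real.exp (C * ga a b x)) :
    ∃ C' > 0, ∀ x ∈ Str b, Real.exp (-Real.exp (C' * ga a b x)) ≤ ‖vg F x‖ := by
  have hO := isOpen_Str b
  have hb := B.b0
  have d1F := B.dF.deriv hO
  have dv : DifferentiableOn ℂ (vg F) (Str b) := fun z hz =>
    (vg_deriv B hz).differentiableAt.differentiableWithinAt
  -- positive minimum on the real line
  obtain ⟨m, hm, hmb⟩ : ∃ m > 0, ∀ x : ℝ, m ≤ ‖deriv F x‖ := by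
    have hc : Continuous fun x : ℝ => ‖deriv F x‖ := by
      have : Continuous fun x : ℝ => deriv F x := by
        rw [← continuousOn_univ]
        exact d1F.continuousOn.comp continuous_ofReal.continuousOn fun x _ => real_mem_Str hb x
      exact this.norm
    obtain ⟨x₀, hx₀, hmin⟩ := (isCompact_Icc (a := (0 : ℝ)) (b := 1)).exists_isMinOn
      ⟨0, by simp⟩ hc.continuousOn
    refine ⟨‖deriv F x₀‖, norm_pos_iff.2 fun h => ?_, fun x => ?_⟩
    · have := B.gpos x₀
      rw [h] at this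
      simp at this
    · have hper : Function.Periodic (fun x : ℝ => deriv F x) 1 := by
        intro x
        have e : (fun w => F (w + 1)) =ᶠ[𝓝 (x : ℂ)] fun w => F w + 2 * Real.pi := by
          filter_upwards [hO.mem_nhds (real_mem_Str hb x)] with w hw using B.Fp w hw
        have h1 := e.deriv_eq
        rw [deriv_comp_add_const, deriv_add_const] at h1
        simpa using h1
      obtain ⟨y, hy, hxy⟩ := hper.exists_mem_Ico₀ one_pos x
      have h1 : deriv F x = deriv F y := hxy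
      rw [h1]
      exact hmin ⟨hy.1, hy.2.le⟩
  obtain ⟨C₁, hC₁, h1⟩ := mul_absorb ha hb 1 C
  obtain ⟨C₂, hC₂, h2⟩ := gron_absorb (C := C₁) (M := m⁻¹) ha hb (inv_pos.2 hm) hC₁.le
  refine ⟨C₂, hC₂, fun x hx => ?_⟩
  have hcoef : ∀ z ∈ Str b, ‖deriv (vg F) z‖ ≤ Real.exp (C₁ * ga a b z) * ‖vg F z‖ := by
    intro z hz
    rw [(vg_deriv B hz).deriv]
    have n1 : ‖deriv F z‖ ≤ ‖vg F z‖ := norm_fst_le (vg F z)
    have n2 : ‖deriv (deriv F) z‖ ≤ ‖vg F z‖ := norm_snd_le (vg F z)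
    have g1 : 1 ≤ Real.exp (C₁ * ga a b z) :=
      Real.one_le_exp (mul_nonneg hC₁.le (ga_pos (a := a) hz).le)
    have hN := norm_nonneg (vg F z)
    refine max_le ?_ ?_
    · show ‖deriv (deriv F) z‖ ≤ _
      nlinarith
    · show ‖Q z * deriv F z‖ ≤ _
      rw [norm_mul]
      have k : ‖Q z‖ ≤ Real.exp (C₁ * ga a b z) := by
        refine (hQ z hz).trans ?_
        have := h1 z hz
        linarith
      exact mul_le_mul k n1 (norm_nonneg _) (Real.exp_pos _).le
  have h4 := (vert_gronwall dv hx (K := Real.exp (C₁ * ga a b x)) (fun z hz => by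
    obtain ⟨hz1, hz2⟩ := ga_mono ha hx hz
    refine (hcoef z hz1).trans ?_
    gcongr)).2
  have h5 : m ≤ ‖vg F x.re‖ := (hmb x.re).trans (norm_fst_le (vg F x.re))
  have h6 := h2 x hx
  rw [Real.exp_neg]
  have h7 : m ≤ ‖vg F x‖ * Real.exp (Real.exp (C₁ * ga a b x) * |x.im|) := h5.trans h4
  rw [inv_le_iff_one_le_mul₀ (Real.exp_pos _)]
  have h8 : 1 = m⁻¹ * m := (inv_mul_cancel₀ hm.ne').symm
  calc (1 : ℝ) = m⁻¹ * m := h8
    _ ≤ m⁻¹ * (‖vg F x‖ * Real.exp (Real.exp (C₁ * ga a b x) * |x.im|)) := by gcongr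
    _ = ‖vg F x‖ * (m⁻¹ * Real.exp (Real.exp (C₁ * ga a b x) * |x.im|)) := by ring
    _ ≤ ‖vg F x‖ * Real.exp (Real.exp (C₂ * ga a b x)) := by gcongr

end Vale.Agent.P097.H320.G
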