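import Vale.Agent.P097.H320.G.Post3
import Vale.Agent.P097.H710.G.Q2

/-!
# P097 / case [c] / growth: post-processing, part 4

(G2) the bound of `Q` from the bound of `F'`; all bounds in one statement.
-/

set_option linter.all false

open Complex Metric Filter Topology Set
open scoped ComplexConjugate

namespace Vale.Agent.P097.H320.G

open Vale.Agent.P097 Vale.Agent.P097.H202 Vale.Agent.P097.SC Vale.Agent.P097.CC

variable {Λ b : ℝ} {F q Q : ℂ → ℂ}

theorem F1_per (B : Bs Λ b F q Q) {z : ℂ} (hz : z ∈ Str b) : deriv F (z + 1) = deriv F z := by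
  have e : (fun w => F (w + 1)) =ᶠ[𝓝 z] fun w => F w + 2 * Real.pi := by
    filter_upwards [(isOpen_Str b).mem_nhds hz] with w hw using B.Fp w hw
  have h1 := e.deriv_eq
  rwa [deriv_comp_add_const, deriv_add_const] at h1

theorem F1_real (B : Bs Λ b F q Q) (x : ℝ) : (deriv F x).im = 0 := by
  have hx := real_mem_Str B.b0 x
  have n := (isOpen_Str b).mem_nhds hx
  have h1 : HasDerivAt F (deriv F x) x := (B.dF.differentiableAt n).hasDerivAt
  have h2 := HasDerivAt.conj_conj (by simpa using h1 : HasDerivAt F (deriv F x) (conj (x : ℂ)))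
  have h3 : (conj ∘ F ∘ conj) =ᶠ[𝓝 (x : ℂ)] F := by
    filter_upwards [n] with w hw
    have := B.Fc w hw
    simp only [Function.comp_apply, this, Complex.conj_conj]
  have h4 : HasDerivAt F (conj (deriv F x)) (x : ℂ) := by
    refine HasDerivAt.congr_of_eventuallyEq ?_ h3.symm
    simpa using h2
  have h5 := h1.unique h4
  exact Complex.conj_eq_iff_im.1 h5.symm

theorem exists_low (B : Bs Λ b F q Q) : ∃ l : ℝ, 0 ≤ l ∧ ∀ x : ℝ, Real.exp (-l) ≤ (deriv F x).re := by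
  have hO := isOpen_Str b
  have d1F := B.dF.deriv hO
  have hc : Continuous fun x : ℝ => (deriv F x).re := by
    have : Continuous fun x : ℝ => deriv F x := by
      rw [← continuousOn_univ]
      exact d1F.continuousOn.comp continuous_ofReal.continuousOn fun x _ => real_mem_Str B.b0 x
    exact continuous_re.comp this
  obtain ⟨x₀, hx₀, hmin⟩ := (isCompact_Icc (a := (0 : ℝ)) (b := 1)).exists_isMinOn
    ⟨0, by simp⟩ hc.continuousOn
  have hper : Function.Periodic (fun x : ℝ => (deriv F x).re) 1 := by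
    intro x
    have := F1_per B (real_mem_Str B.b0 x)
    push_cast
    rw [this]
  have hpos := B.gpos x₀
  refine ⟨|Real.log (deriv F x₀).re|, abs_nonneg _, fun x => ?_⟩
  obtain ⟨y, hy, hxy⟩ := hper.exists_mem_Ico₀ one_pos x
  have h1 : (deriv F x).re = (deriv F y).re := hxy
  rw [h1]
  have h2 : (deriv F x₀).re ≤ (deriv F y).re := hmin ⟨hy.1, hy.2.le⟩
  refine le_trans ?_ h2
  calc Real.exp (-|Real.log (deriv F x₀).re|) ≤ Real.exp (Real.log (deriv F x₀).re) :=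
        Real.exp_le_exp.2 (neg_abs_le _)
    _ = _ := Real.exp_log hpos

/-- **(G2)** : power bound of `Q` -/
theorem Q_pow {a C : ℝ} (ha : 0 < a) (B : Bs Λ b F q Q)
    (h : ∀ x ∈ Str b, ‖deriv F x‖ ≤ Real.exp (C * ga a b x)) :
    ∃ K > 0, ∀ x ∈ Str b, ‖Q x‖ ≤ K * (b - |x.im|) ^ (-(6 + 4 * a)) := by
  have hO := isOpen_Str b
  have hb := B.b0
  have d1F := B.dF.deriv hO
  obtain ⟨l, hl, hlow⟩ := exists_low B
  -- constants
  obtain ⟨C₁, hC₁, h1⟩ := const_absorb ha hb (l + 1)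
  set A₀ : ℝ := |C| * 2 ^ a + C₁ with hA₀
  set R₀ : ℝ := min (1 / b) (1 / 2) with hR₀
  have hR₀0 : 0 < R₀ := by positivity
  have hA₀0 : 0 < A₀ := by positivity
  refine ⟨3 * 10 ^ 10 * A₀ ^ 4 / R₀ ^ 6, by positivity, fun x hx => ?_⟩
  have hd := dd_pos hx
  set d : ℝ := b - |x.im| with hdd
  have hg := ga_pos (a := a) hx
  have hdb : d ≤ b := by
    have := abs_nonneg x.im
    linarith
  set R : ℝ := R₀ * d with hR
  have hRpos : 0 < R := by positivity
  have hR1 : R ≤ 1 := by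
    calc R ≤ 1 / b * b := by
          rw [hR]; exact mul_le_mul (min_le_left _ _) hdb hd.le (by positivity)
      _ = 1 := by field_simp
  have hRd : R ≤ d / 2 := by
    rw [hR]
    have := min_le_right (1 / b) (1 / 2 : ℝ)
    nlinarith
  have hbd : ∀ z : ℂ, |z.im| < b - d / 2 → ‖deriv F z‖ ≤ Real.exp (|C| * 2 ^ a * ga a b x) := by
    intro z hz
    have hz1 : z ∈ Str b := by rw [mem_Str]; linarith
    refine (h z hz1).trans (Real.exp_le_exp.2 ?_)
    have hz2 : ga a b z ≤ 2 ^ a * ga a b x := by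
      unfold ga
      calc (b - |z.im|) ^ (-a) ≤ (d / 2) ^ (-a) :=
            Real.rpow_le_rpow_of_nonpos (by positivity) (by linarith) (by linarith)
        _ = 2 ^ a * (b - |x.im|) ^ (-a) := by
            rw [Real.div_rpow hd.le (by norm_num), Real.rpow_neg (by norm_num : (0 : ℝ) ≤ 2)]
            field_simp
            rfl
    calc C * ga a b z ≤ |C| * ga a b z :=
          mul_le_mul_of_nonneg_right (le_abs_self C) (ga_pos (a := a) hz1).le
      _ ≤ |C| * (2 ^ a * ga a b x) := mul_le_mul_of_nonneg_left hz2 (abs_nonneg C)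
      _ = _ := by ring
  have key := H710.G.Q2.Q_bound (g := deriv F) (l := l) (b := b) (Q := Q) d1F B.dQ
    (fun z hz => B.gQ z hz) (fun z hz => F1_per B hz) (fun t => ⟨F1_real B t, hlow t⟩) hl
    (A := |C| * 2 ^ a * ga a b x) (Y := b - d / 2) (R := R) (by positivity) hRpos hR1 (by linarith)
    hbd (z := x) (by linarith)
  refine key.trans ?_
  have h2 : |C| * 2 ^ a * ga a b x + l + 1 ≤ A₀ * ga a b x := by
    have := h1 x hx
    rw [hA₀, add_mul]
    linarith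
  have h3 : 0 ≤ |C| * 2 ^ a * ga a b x + l + 1 := by positivity
  have e1 : ga a b x = d ^ (-a) := rfl
  have e2 : (d ^ (-a)) ^ 4 = d ^ (-(4 * a)) := by
    rw [← Real.rpow_natCast, ← Real.rpow_mul hd.le]
    congr 1
    push_cast
    ring
  have e3 : d ^ (-(6 + 4 * a)) = d ^ (-(4 * a)) / d ^ 6 := by
    have : -(6 + 4 * a) = -(4 * a) - (6 : ℕ) := by push_cast; ring
    rw [this, Real.rpow_sub_natCast hd.ne']
  calc 3 * 10 ^ 10 * (|C| * 2 ^ a * ga a b x + l + 1) ^ 4 / R ^ 6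
      ≤ 3 * 10 ^ 10 * (A₀ * ga a b x) ^ 4 / R ^ 6 := by gcongr
    _ = 3 * 10 ^ 10 * A₀ ^ 4 / R₀ ^ 6 * (d ^ (-(4 * a)) / d ^ 6) := by
        rw [mul_pow, e1, e2, hR, mul_pow]
        field_simp
    _ = _ := by rw [e3]

theorem Q_exp {a C : ℝ} (ha : 0 < a) (B : Bs Λ b F q Q)
    (h : ∀ x ∈ Str b, ‖deriv F x‖ ≤ Real.exp (C * ga a b x)) :
    ∃ C' > 0, ∀ x ∈ Str b, ‖Q x‖ ≤ Real.exp (C' * ga a b x) := by
  obtain ⟨K, hK, h1⟩ := Q_pow ha B h
  obtain ⟨C₁, hC₁, h2⟩ := pow_absorb ha B.b0 (6 + 4 * a) (by positivity)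
  obtain ⟨C₂, hC₂, h3⟩ := mul_absorb ha B.b0 K C₁
  refine ⟨C₂, hC₂, fun x hx => (h1 x hx).trans (le_trans ?_ (h3 x hx))⟩
  gcongr
  exact h2 x hx

/-- **Post-processing of the growth row**: everything from the bound of `F'` -/
theorem post {a C : ℝ} (ha : 0 < a) (B : Bs Λ b F q Q)
    (h : ∀ x ∈ Str b, ‖deriv F x‖ ≤ Real.exp (C * (b - |x.im|) ^ (-a))) :
    ∃ C' > 0, ∀ x ∈ Str b,
      ‖F x - 2 * Real.pi * x‖ ≤ Real.exp (C' * (b - |x.im|) ^ (-a)) ∧
      ‖deriv F x‖ ≤ Real.exp (C' * (b - |x.im|) ^ (-a)) ∧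
      ‖deriv (deriv F) x‖ ≤ Real.exp (C' * (b - |x.im|) ^ (-a)) ∧
      ‖Q x‖ ≤ C' * (b - |x.im|) ^ (-(6 + 4 * a)) ∧
      ‖Q x‖ ≤ Real.exp (C' * (b - |x.im|) ^ (-a)) ∧
      ‖q x‖ ≤ Real.exp (Real.exp (C' * (b - |x.im|) ^ (-a))) ∧
      ‖deriv q x‖ ≤ Real.exp (Real.exp (C' * (b - |x.im|) ^ (-a))) ∧
      ‖deriv (deriv q) x‖ ≤ Real.exp (Real.exp (C' * (b - |x.im|) ^ (-a))) ∧
      Real.exp (-Real.exp (C' * (b - |x.im|) ^ (-a))) ≤ max ‖deriv F x‖ ‖deriv (deriv F) x‖ := by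
  have hO := isOpen_Str b
  have hb := B.b0
  have h' : ∀ x ∈ Str b, ‖deriv F x‖ ≤ Real.exp (C * ga a b x) := h
  obtain ⟨C₁, c₁, h1⟩ := F_bd ha B h'
  obtain ⟨C₂, c₂, h2⟩ := deriv_bd ha hb (B.dF.deriv hO) h'
  obtain ⟨C₃, c₃, h3⟩ := Q_pow ha B h'
  obtain ⟨C₄, c₄, h4⟩ := Q_exp ha B h'
  have h5 : ∀ x ∈ Str b, ‖deriv F x‖ ≤ Real.exp ((|C| + C₄) * ga a b x) := fun x hx =>
    (h' x hx).trans (Real.exp_le_exp.2 (by
      have := (ga_pos (a := a) hx).le
      have := le_abs_self C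
      gcongr
      linarith))
  have h6 : ∀ x ∈ Str b, ‖Q x‖ ≤ Real.exp ((|C| + C₄) * ga a b x) := fun x hx =>
    (h4 x hx).trans (Real.exp_le_exp.2 (by
      have := (ga_pos (a := a) hx).le
      have := abs_nonneg C
      gcongr
      linarith))
  obtain ⟨C₅, c₅, h7⟩ := q_bd ha B h5 h6
  obtain ⟨C₆, c₆, h8⟩ := g_low ha B c₄.le h4
  refine ⟨|C| + C₁ + C₂ + C₃ + C₄ + C₅ + C₆, by positivity, fun x hx => ?_⟩
  have hg : 0 ≤ (b - |x.im|) ^ (-a) := (ga_pos (a := a) hx).le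
  have hC := abs_nonneg C
  have mono : ∀ {c : ℝ}, c ≤ |C| + C₁ + C₂ + C₃ + C₄ + C₅ + C₆ →
      Real.exp (c * (b - |x.im|) ^ (-a)) ≤
        Real.exp ((|C| + C₁ + C₂ + C₃ + C₄ + C₅ + C₆) * (b - |x.im|) ^ (-a)) := fun {c} hc =>
    Real.exp_le_exp.2 (mul_le_mul_of_nonneg_right hc hg)
  have v := h7 x hx
  have v1 : ‖q x‖ ≤ ‖vq q x‖ := norm_fst_le (vq q x)
  have v2 : ‖deriv q x‖ ≤ ‖vq q x‖ := (norm_fst_le (vq q x).2).trans (norm_snd_le _)
  have v3 : ‖deriv (deriv q) x‖ ≤ ‖vq q x‖ := (norm_snd_le (vq q x).2).trans (norm_snd_le _)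
  have hCa := le_abs_self C
  refine ⟨(h1 x hx).trans (mono (by linarith)), (h x hx).trans (mono (by linarith)),
    (h2 x hx).trans (mono (by linarith)), (h3 x hx).trans ?_, (h4 x hx).trans (mono (by linarith)),
    (v1.trans v).trans (Real.exp_le_exp.2 (mono (by linarith))),
    (v2.trans v).trans (Real.exp_le_exp.2 (mono (by linarith))),
    (v3.trans v).trans (Real.exp_le_exp.2 (mono (by linarith))), ?_⟩
  · have := Real.rpow_nonneg (dd_pos hx).le (-(6 + 4 * a))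
    gcongr
    linarith
  · refine le_trans (Real.exp_le_exp.2 ?_) (h8 x hx)
    have := mono (c := C₆) (by linarith)
    have e : ga a b x = (b - |x.im|) ^ (-a) := rfl
    rw [e]
    linarith

end Vale.Agent.P097.H320.G
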